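import Vale.Agent.Lib.P034.H6.MatSeparation

namespace Vale.Agent.Lib.P034.H6

open Finset

set_option linter.unusedSectionVars false

variable {α : Type*} [Fintype α] [DecidableEq α]

lemma cost_bound (N k : ℕ) (hk : 1 ≤ k) (p : ℝ) (hp : 0 ≤ p) (h : p * (N : ℝ) < (k : ℝ)) :
    (N.choose k : ℝ) * (p / 6) ^ k ≤ 1 / 2 := by
  have h1 : (N.choose k : ℝ) ≤ (N : ℝ) ^ k / (k.factorial : ℝ) := Nat.choose_le_pow_div k N
  have hfact : (0 : ℝ) < (k.factorial : ℝ) := by exact_mod_cast Nat.factorial_pos k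
  have h2 : (p * (N : ℝ)) ^ k ≤ (k : ℝ) ^ k :=
    pow_le_pow_left₀ (mul_nonneg hp (Nat.cast_nonneg N)) h.le k
  have h3 : (k : ℝ) ^ k / (k.factorial : ℝ) ≤ Real.exp (k : ℝ) :=
    Real.pow_div_factorial_le_exp (k : ℝ) (Nat.cast_nonneg k) k
  have h4 : Real.exp (k : ℝ) ≤ 3 ^ k := by
    have : Real.exp (k : ℝ) = Real.exp 1 ^ k := by
      rw [← Real.exp_nat_mul, mul_one]
    rw [this]
    exact pow_le_pow_left₀ (Real.exp_pos 1).le Real.exp_one_lt_three.le k
  have h5 : (k : ℝ) ^ k ≤ 3 ^ k * (k.factorial : ℝ) := by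
    rw [div_le_iff₀ hfact] at h3
    exact h3.trans (mul_le_mul_of_nonneg_right h4 hfact.le)
  have h6 : ((1 : ℝ) / 2) ^ k ≤ 1 / 2 := by
    calc ((1 : ℝ) / 2) ^ k ≤ (1 / 2) ^ 1 :=
          pow_le_pow_of_le_one (by norm_num) (by norm_num) hk
      _ = 1 / 2 := by norm_num
  have h7 : (p / 6) ^ k = p ^ k / 6 ^ k := div_pow p 6 k
  have hp6 : (0 : ℝ) ≤ (p / 6) ^ k := pow_nonneg (div_nonneg hp (by norm_num)) k
  calc (N.choose k : ℝ) * (p / 6) ^ k
      ≤ (N : ℝ) ^ k / (k.factorial : ℝ) * (p / 6) ^ k := mul_le_mul_of_nonneg_right h1 hp6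
    _ = (p * (N : ℝ)) ^ k / ((k.factorial : ℝ) * 6 ^ k) := by
        rw [h7, mul_pow]
        field_simp
    _ ≤ (3 ^ k * (k.factorial : ℝ)) / ((k.factorial : ℝ) * 6 ^ k) := by
        apply div_le_div_of_nonneg_right (h2.trans h5)
        positivity
    _ = (1 / 2) ^ k := by
        rw [div_pow, one_pow]
        have : (6 : ℝ) ^ k = 3 ^ k * 2 ^ k := by
          rw [← mul_pow]
          norm_num
        rw [this]
        field_simp
    _ ≤ 1 / 2 := h6

/-- a set violating density yields a cheap integral cover of the bases -/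
theorem cover_of_not_dense (M : Matroid α) (p : ℝ) (hp : 0 ≤ p) (A I B0 : Finset α)
    (hI : M.IsBasis' (I : Set α) (A : Set α)) (hB0 : M.IsBase (B0 : Set α))
    (hlt : p * ((Finset.univ \ A).card : ℝ) < (B0.card : ℝ) - I.card) :
    ∃ G : Finset (Finset α), (∀ B : Finset α, M.IsBase (B : Set α) → ∃ S ∈ G, S ⊆ B) ∧
      ∑ S ∈ G, (p / 6) ^ S.card ≤ 1 / 2 := by
  set Y : Finset α := Finset.univ \ A with hY
  have hpos : (0 : ℝ) < (B0.card : ℝ) - I.card :=
    lt_of_le_of_lt (mul_nonneg hp (Nat.cast_nonneg _)) hlt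
  have hIB : I.card < B0.card := by
    have : (I.card : ℝ) < (B0.card : ℝ) := by linarith
    exact_mod_cast this
  set k : ℕ := B0.card - I.card with hk
  have hk1 : 1 ≤ k := by omega
  have hkr : (k : ℝ) = (B0.card : ℝ) - I.card := by
    rw [hk, Nat.cast_sub hIB.le]
  refine ⟨Y.powersetCard k, ?_, ?_⟩
  · intro B hB
    have hcard : B.card = B0.card := by
      have := hB.ncard_eq_ncard_of_isBase hB0
      rwa [Set.ncard_coe_finset, Set.ncard_coe_finset] at this
    have hinter : (B ∩ A).card ≤ I.card := by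
      have hind : M.Indep ((B ∩ A : Finset α) : Set α) :=
        hB.indep.subset (by
          rw [Finset.coe_inter]
          exact Set.inter_subset_left)
      have h1 := hind.encard_le_eRk_of_subset (X := (A : Set α)) (by
        rw [Finset.coe_inter]
        exact Set.inter_subset_right)
      rw [← hI.encard_eq_eRk, Set.encard_coe_eq_coe_finsetCard,
        Set.encard_coe_eq_coe_finsetCard] at h1
      exact_mod_cast h1
    have hsplit : (B \ A).card + (B ∩ A).card = B.card := Finset.card_sdiff_add_card_inter B A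
    have hge : k ≤ (B \ A).card := by omega
    obtain ⟨S, hSsub, hScard⟩ := Finset.exists_subset_card_eq hge
    refine ⟨S, ?_, ?_⟩
    · rw [Finset.mem_powersetCard]
      refine ⟨?_, hScard⟩
      intro x hx
      have := hSsub hx
      rw [Finset.mem_sdiff] at this
      rw [hY, Finset.mem_sdiff]
      exact ⟨Finset.mem_univ x, this.2⟩
    · intro x hx
      exact (Finset.mem_sdiff.1 (hSsub hx)).1
  · have hsum : ∑ S ∈ Y.powersetCard k, (p / 6) ^ S.card
        = (Y.card.choose k : ℝ) * (p / 6) ^ k := by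
      rw [Finset.sum_congr rfl (fun S hS => by rw [(Finset.mem_powersetCard.1 hS).2]),
        Finset.sum_const, Finset.card_powersetCard, nsmul_eq_mul]
    rw [hsum]
    apply cost_bound Y.card k hk1 p hp
    rw [hkr]
    exact hlt

/-- **fractional versus integral covers of the bases of a matroid** -/
theorem matroid_cover (M : Matroid α) (p : ℝ) (hp : 0 ≤ p) (g : Finset α → ℝ)
    (hg : ∀ S, 0 ≤ g S)
    (hcov : ∀ B : Finset α, M.IsBase (B : Set α) → 1 ≤ ∑ S ∈ B.powerset, g S)
    (hcost : ∑ S : Finset α, g S * p ^ S.card ≤ 1 / 2) :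
    ∃ G : Finset (Finset α), (∀ B : Finset α, M.IsBase (B : Set α) → ∃ S ∈ G, S ⊆ B) ∧
      ∑ S ∈ G, (p / 6) ^ S.card ≤ 1 / 2 := by
  by_cases hd : dense M p
  · exfalso
    obtain ⟨s, lam, h1, h2, h3, h4⟩ := exists_point M p hd
    have hge := mlin_ge_one M g hg hcov s lam (fun B => B) h1 h2 h3
    have hx0 : ∀ e, 0 ≤ ∑ B ∈ s, lam B * ind B e := fun e =>
      Finset.sum_nonneg (fun B hB => mul_nonneg (h1 B hB) (ind_nonneg B e))
    have hle : mlin g (fun e => ∑ B ∈ s, lam B * ind B e) ≤ ∑ S : Finset α, g S * p ^ S.card := by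
      unfold mlin
      apply Finset.sum_le_sum
      intro S _
      apply mul_le_mul_of_nonneg_left _ (hg S)
      calc ∏ e ∈ S, ∑ B ∈ s, lam B * ind B e ≤ ∏ _e ∈ S, p :=
            Finset.prod_le_prod (fun e _ => hx0 e) (fun e _ => h4 e)
        _ = p ^ S.card := Finset.prod_const p
    linarith
  · unfold dense at hd
    push Not at hd
    obtain ⟨A, I, B0, hI, hB0, hlt⟩ := hd
    exact cover_of_not_dense M p hp A I B0 hI hB0 hlt

end Vale.Agent.Lib.P034.H6
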