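import Mathlib

namespace Vale.Agent.Lib.P034.H6

open Set

variable {α : Type*}

/-- the symmetric exchange property of the bases of a matroid -/
theorem symm_exchange (M : Matroid α) {B B' : Set α} (hB : M.IsBase B) (hB' : M.IsBase B')
    {i : α} (hi : i ∈ B) (hi' : i ∉ B') :
    ∃ j, j ∈ B' ∧ j ∉ B ∧ M.IsBase (insert j (B \ {i})) ∧ M.IsBase (insert i (B' \ {j})) := by
  have hiE : i ∈ M.E := hB.subset_ground hi
  have hicl : i ∈ M.closure B' := by
    rw [hB'.closure_eq]
    exact hiE
  have hC : M.IsCircuit (M.fundCircuit i B') := hB'.fundCircuit_isCircuit hiE hi'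
  have hnot : i ∉ M.closure (B \ {i}) := hB.indep.notMem_closure_sdiff_of_mem hi
  have hex : ∃ j ∈ M.fundCircuit i B', j ≠ i ∧ j ∉ M.closure (B \ {i}) := by
    by_contra hcon
    have hsub : M.fundCircuit i B' \ {i} ⊆ M.closure (B \ {i}) := by
      intro j hj
      by_contra hjn
      exact hcon ⟨j, hj.1, by simpa using hj.2, hjn⟩
    have h1 : i ∈ M.closure (M.fundCircuit i B' \ {i}) :=
      hC.mem_closure_sdiff_singleton_of_mem (M.mem_fundCircuit i B')
    exact hnot (M.closure_subset_closure_of_subset_closure hsub h1)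
  obtain ⟨j, hjC, hji, hjcl⟩ := hex
  have hjB' : j ∈ B' := by
    have := M.fundCircuit_subset_insert i B' hjC
    rcases this with h | h
    · exact absurd h hji
    · exact h
  have hjE : j ∈ M.E := hB'.subset_ground hjB'
  have hjB : j ∉ B := by
    intro hjB
    apply hjcl
    exact M.mem_closure_of_mem' ⟨hjB, by simpa using hji⟩ hjE
  refine ⟨j, hjB', hjB, hB.exchange_base_of_notMem_closure hi hjcl hjE, ?_⟩
  have hind : M.Indep (insert i B' \ {j}) :=
    (hB'.indep.mem_fundCircuit_iff hicl hi').1 hjC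
  have h2 := hB'.exchange_isBase_of_indep' hjB' hi' hind
  have heq : insert i B' \ {j} = insert i (B' \ {j}) := by
    ext x
    simp only [mem_sdiff, mem_insert_iff, mem_singleton_iff]
    constructor
    · rintro ⟨h | h, hx⟩
      · exact Or.inl h
      · exact Or.inr ⟨h, hx⟩
    · rintro (h | ⟨h, hx⟩)
      · exact ⟨Or.inl h, by rw [h]; exact fun h' => hji h'.symm⟩
      · exact ⟨Or.inr h, hx⟩
  rw [heq] at h2
  exact h2

end Vale.Agent.Lib.P034.H6
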