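import Vale.Agent.Lib.P034.H6.MatMultilinear

namespace Vale.Agent.Lib.P034.H6

open Finset

set_option linter.unusedSectionVars false

variable {α : Type*} [Fintype α] [DecidableEq α]

/-- every set `A` satisfies `r(M) - r(A) ≤ θ |X \ A|` -/
def dense (M : Matroid α) (θ : ℝ) : Prop :=
  ∀ (A I B : Finset α), M.IsBasis' (I : Set α) (A : Set α) → M.IsBase (B : Set α) →
    (B.card : ℝ) - I.card ≤ θ * ((Finset.univ \ A).card : ℝ)

lemma sum_split_weights (T : Finset α) (w : α → ℝ) (c : ℝ) :
    ∑ e ∈ T, w e = ∑ e ∈ T, (if w e = 0 then 0 else w e - c)
      + c * ((T.filter (fun e => w e ≠ 0)).card : ℝ) := by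
  have h1 : ∀ e ∈ T, w e = (if w e = 0 then 0 else w e - c) + (if w e ≠ 0 then c else 0) := by
    intro e _
    by_cases h : w e = 0
    · simp [h]
    · simp [h]
  rw [Finset.sum_congr rfl h1, Finset.sum_add_distrib]
  congr 1
  rw [← Finset.sum_filter, Finset.sum_const, nsmul_eq_mul, mul_comm]

/-- the greedy base: in a dense matroid, every nonnegative weight function has a base of weight
at most `θ` times the total weight -/
theorem greedy (M : Matroid α) (θ : ℝ) (hdense : dense M θ) :
    ∀ (n : ℕ) (w : α → ℝ), (∀ e, 0 ≤ w e) →
      (Finset.univ.filter (fun e => w e ≠ 0)).card = n →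
      ∀ I : Finset α,
        M.IsBasis' (I : Set α) ((Finset.univ.filter (fun e => w e = 0) : Finset α) : Set α) →
        ∃ B : Finset α, M.IsBase (B : Set α) ∧
          B ∩ Finset.univ.filter (fun e => w e = 0) = I ∧
          ∑ e ∈ B, w e ≤ θ * ∑ e, w e := by
  intro n
  induction n using Nat.strong_induction_on with
  | _ n ih =>
    intro w hw hn I hI
    set A : Finset α := Finset.univ.filter (fun e => w e = 0) with hA
    set U : Finset α := Finset.univ.filter (fun e => w e ≠ 0) with hU
    by_cases hUe : U = ∅
    · -- all weights vanish
      have hAu : A = Finset.univ := by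
        ext e
        simp only [hA, Finset.mem_filter, Finset.mem_univ, true_and, iff_true]
        by_contra h
        have : e ∈ U := by simp [hU, h]
        rw [hUe] at this
        exact absurd this (Finset.notMem_empty e)
      have hw0 : ∀ e, w e = 0 := by
        intro e
        have : e ∈ A := by rw [hAu]; exact Finset.mem_univ e
        simpa [hA] using this
      have hbase : M.IsBase (I : Set α) := by
        have h1 := hI.isBasis_inter_ground
        rw [hAu, Finset.coe_univ, Set.univ_inter] at h1
        exact Matroid.isBasis_ground_iff.1 h1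
      refine ⟨I, hbase, ?_, ?_⟩
      · rw [hAu, Finset.inter_univ]
      · simp [hw0]
    · -- subtract the least positive weight
      have hUne : U.Nonempty := Finset.nonempty_iff_ne_empty.2 hUe
      obtain ⟨e0, he0, hmin⟩ := Finset.exists_min_image U w hUne
      have he0' : w e0 ≠ 0 := by simpa [hU] using he0
      set c := w e0 with hc
      have hcpos : 0 < c := lt_of_le_of_ne (hw e0) (Ne.symm he0')
      set w' : α → ℝ := fun e => if w e = 0 then 0 else w e - c with hw'
      have hw'0 : ∀ e, 0 ≤ w' e := by
        intro e
        simp only [hw']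
        split_ifs with h
        · exact le_rfl
        · have : e ∈ U := by simp [hU, h]
          linarith [hmin e this]
      set A' : Finset α := Finset.univ.filter (fun e => w' e = 0) with hA'
      have hAA' : A ⊆ A' := by
        intro e he
        have h0 : w e = 0 := by simpa [hA] using he
        simp [hA', hw', h0]
      have hsupp : (Finset.univ.filter (fun e => w' e ≠ 0)).card < n := by
        rw [← hn]
        apply Finset.card_lt_card
        rw [Finset.ssubset_iff_of_subset]
        · refine ⟨e0, he0, ?_⟩
          simp [hw', hc]
        · intro e he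
          have h1 : w' e ≠ 0 := by simpa using he
          have h2 : w e ≠ 0 := by
            intro h
            apply h1
            simp [hw', h]
          simp [hU, h2]
      -- extend the basis
      have hIb := hI.isBasis_inter_ground
      have hsubset : (A : Set α) ∩ M.E ⊆ (A' : Set α) ∩ M.E :=
        Set.inter_subset_inter_left _ (by exact_mod_cast hAA')
      obtain ⟨J, hJ, hJI⟩ := hIb.exists_isBasis_inter_eq_of_superset hsubset Set.inter_subset_right
      have hJ' : M.IsBasis' J (A' : Set α) := Matroid.isBasis'_iff_isBasis_inter_ground.2 hJ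
      set I' : Finset α := (Set.toFinite J).toFinset with hI'
      have hI'c : (I' : Set α) = J := Set.Finite.coe_toFinset _
      have hJE : J ⊆ M.E := hJ.indep.subset_ground
      have hI'A : I' ∩ A = I := by
        apply Finset.coe_injective
        rw [Finset.coe_inter, hI'c, ← hJI]
        ext x
        simp only [Set.mem_inter_iff]
        constructor
        · rintro ⟨h1, h2⟩
          exact ⟨h1, h2, hJE h1⟩
        · rintro ⟨h1, h2, _⟩
          exact ⟨h1, h2⟩
      obtain ⟨B, hB, hBA', hBw⟩ := ih _ hsupp w' hw'0 rfl I' (by rw [hI'c]; exact hJ')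
      have hBA : B ∩ A = I := by
        rw [← hI'A, ← hBA']
        ext x
        simp only [Finset.mem_inter]
        constructor
        · rintro ⟨h1, h2⟩
          exact ⟨⟨h1, hAA' h2⟩, h2⟩
        · rintro ⟨⟨h1, _⟩, h2⟩
          exact ⟨h1, h2⟩
      refine ⟨B, hB, hBA, ?_⟩
      have s1 := sum_split_weights B w c
      have s2 := sum_split_weights Finset.univ w c
      have hcardB : ((B.filter (fun e => w e ≠ 0)).card : ℝ) = (B.card : ℝ) - I.card := by
        have h1 : (B.filter (fun e => w e = 0)).card + (B.filter (fun e => ¬ w e = 0)).card
            = B.card := Finset.card_filter_add_card_filter_not (fun e => w e = 0)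
        have h2 : B.filter (fun e => w e = 0) = B ∩ A := by
          ext x
          simp [hA]
        rw [h2, hBA] at h1
        have h3 : ((I.card + (B.filter (fun e => ¬ w e = 0)).card : ℕ) : ℝ) = (B.card : ℝ) := by
          rw [h1]
        push_cast at h3
        linarith
      have hcardU : (Finset.univ.filter (fun e => w e ≠ 0)).card = (Finset.univ \ A).card := by
        congr 1
        ext x
        simp [hA]
      have hd := hdense A I B hI hB
      rw [s1, s2, hcardB, hcardU]
      have h5 : c * ((B.card : ℝ) - I.card) ≤ c * (θ * ((Finset.univ \ A).card : ℝ)) :=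
        mul_le_mul_of_nonneg_left hd hcpos.le
      have h6 : ∑ e ∈ B, w' e ≤ θ * ∑ e, w' e := hBw
      simp only [hw'] at h6
      nlinarith [h5, h6]

end Vale.Agent.Lib.P034.H6
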