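import Vale.Agent.Lib.P034.H6.MatExchange

namespace Vale.Agent.Lib.P034.H6

open Finset

set_option linter.unusedSectionVars false

variable {α : Type*} [Fintype α] [DecidableEq α]

/-- the multilinear extension of a weight function on finite sets -/
noncomputable def mlin (g : Finset α → ℝ) (y : α → ℝ) : ℝ :=
  ∑ S : Finset α, g S * ∏ e ∈ S, y e

/-- the indicator vector of a finite set -/
def ind (B : Finset α) : α → ℝ := fun e => if e ∈ B then 1 else 0

lemma ind_nonneg (B : Finset α) (e : α) : 0 ≤ ind B e := by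
  unfold ind
  split_ifs <;> norm_num

lemma prod_ind (B S : Finset α) : ∏ e ∈ S, ind B e = if S ⊆ B then 1 else 0 := by
  split_ifs with h
  · apply Finset.prod_eq_one
    intro e he
    simp [ind, h he]
  · obtain ⟨e, he, heB⟩ := Finset.not_subset.1 h
    apply Finset.prod_eq_zero he
    simp [ind, heB]

lemma mlin_ind (g : Finset α → ℝ) (B : Finset α) : mlin g (ind B) = ∑ S ∈ B.powerset, g S := by
  unfold mlin
  have h1 : ∀ S : Finset α, g S * ∏ e ∈ S, ind B e = if S ⊆ B then g S else 0 := by
    intro S
    rw [prod_ind]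
    split_ifs <;> simp
  simp_rw [h1]
  rw [← Finset.sum_filter]
  apply Finset.sum_congr
  · ext S
    simp [Finset.mem_powerset]
  · intro S _
    rfl

/-- move mass `t` from coordinate `j` to coordinate `i` -/
def shift (y : α → ℝ) (i j : α) (t : ℝ) : α → ℝ :=
  fun e => y e + (if e = i then t else 0) - (if e = j then t else 0)

lemma prod_split (S : Finset α) (i j : α) (hij : i ≠ j) (h : α → ℝ) :
    ∏ e ∈ S, h e = (∏ e ∈ (S.erase i).erase j, h e) * (if i ∈ S then h i else 1) *
      (if j ∈ S then h j else 1) := by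
  have h1 : ∏ e ∈ S, h e = (if i ∈ S then h i else 1) * ∏ e ∈ S.erase i, h e := by
    split_ifs with hi
    · rw [Finset.mul_prod_erase S h hi]
    · rw [Finset.erase_eq_of_notMem hi, one_mul]
  have h2 : ∏ e ∈ S.erase i, h e =
      (if j ∈ S then h j else 1) * ∏ e ∈ (S.erase i).erase j, h e := by
    split_ifs with hj
    · have hj' : j ∈ S.erase i := Finset.mem_erase.2 ⟨hij.symm, hj⟩
      rw [Finset.mul_prod_erase _ h hj']
    · have hj' : j ∉ S.erase i := fun hh => hj (Finset.mem_of_mem_erase hh)
      rw [Finset.erase_eq_of_notMem hj', one_mul]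
  rw [h1, h2]
  ring

lemma prod_shift_rest (S : Finset α) (y : α → ℝ) (i j : α) (t : ℝ) :
    ∏ e ∈ (S.erase i).erase j, shift y i j t e = ∏ e ∈ (S.erase i).erase j, y e := by
  apply Finset.prod_congr rfl
  intro e he
  have h1 : e ≠ j := (Finset.mem_erase.1 he).1
  have h2 : e ≠ i := (Finset.mem_erase.1 (Finset.mem_erase.1 he).2).1
  simp [shift, h1, h2]

/-- concavity of a monomial along an exchange direction -/
lemma mono_conc (S : Finset α) (y : α → ℝ) (hy : ∀ e, 0 ≤ y e) (i j : α) (hij : i ≠ j)
    (l m : ℝ) (hl : 0 ≤ l) (hm : 0 ≤ m) :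
    l * ∏ e ∈ S, shift y i j m e + m * ∏ e ∈ S, shift y i j (-l) e
      ≤ (l + m) * ∏ e ∈ S, y e := by
  rw [prod_split S i j hij (shift y i j m), prod_split S i j hij (shift y i j (-l)),
    prod_split S i j hij y, prod_shift_rest, prod_shift_rest]
  set R := ∏ e ∈ (S.erase i).erase j, y e with hR
  have hR0 : 0 ≤ R := Finset.prod_nonneg (fun e _ => hy e)
  have e1 : shift y i j m i = y i + m := by simp [shift, hij]
  have e2 : shift y i j m j = y j - m := by simp [shift, hij.symm]
  have e3 : shift y i j (-l) i = y i - l := by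
    simp [shift, hij]
    ring
  have e4 : shift y i j (-l) j = y j + l := by simp [shift, hij.symm]
  rw [e1, e2, e3, e4]
  by_cases hi : i ∈ S <;> by_cases hj : j ∈ S
  · simp only [hi, hj, if_true]
    have : l * (R * (y i + m) * (y j - m)) + m * (R * (y i - l) * (y j + l))
        = (l + m) * (R * y i * y j) - R * (l * m * (l + m)) := by ring
    rw [this]
    have : 0 ≤ R * (l * m * (l + m)) :=
      mul_nonneg hR0 (mul_nonneg (mul_nonneg hl hm) (add_nonneg hl hm))
    linarith
  · simp only [hi, hj, if_true, if_false]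
    apply le_of_eq
    ring
  · simp only [hi, hj, if_true, if_false]
    apply le_of_eq
    ring
  · simp only [hi, hj, if_false]
    apply le_of_eq
    ring

/-- concavity of the multilinear extension along an exchange direction -/
lemma mlin_conc (g : Finset α → ℝ) (hg : ∀ S, 0 ≤ g S) (y : α → ℝ) (hy : ∀ e, 0 ≤ y e)
    (i j : α) (hij : i ≠ j) (l m : ℝ) (hl : 0 ≤ l) (hm : 0 ≤ m) :
    l * mlin g (shift y i j m) + m * mlin g (shift y i j (-l)) ≤ (l + m) * mlin g y := by
  unfold mlin
  rw [Finset.mul_sum, Finset.mul_sum, Finset.mul_sum, ← Finset.sum_add_distrib]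
  apply Finset.sum_le_sum
  intro S _
  have h := mono_conc S y hy i j hij l m hl hm
  calc l * (g S * ∏ e ∈ S, shift y i j m e) + m * (g S * ∏ e ∈ S, shift y i j (-l) e)
      = g S * (l * ∏ e ∈ S, shift y i j m e + m * ∏ e ∈ S, shift y i j (-l) e) := by ring
    _ ≤ g S * ((l + m) * ∏ e ∈ S, y e) := mul_le_mul_of_nonneg_left h (hg S)
    _ = (l + m) * (g S * ∏ e ∈ S, y e) := by ring

lemma ind_swap (B : Finset α) (i j : α) (hi : i ∉ B) (hj : j ∈ B) (e : α) :
    ind (insert i (B.erase j)) e = ind B e + (if e = i then 1 else 0) - (if e = j then 1 else 0) := by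
  have hij : i ≠ j := fun h => hi (h ▸ hj)
  unfold ind
  by_cases h1 : e = i
  · subst h1
    simp [hi, hij]
  · by_cases h2 : e = j
    · subst h2
      simp [hj, h1]
    · simp [h1, h2, Finset.mem_insert, Finset.mem_erase]

/-- merging two bases of a convex combination into one does not increase the multilinear
extension, for a suitable choice of the merged base -/
theorem merge (M : Matroid α) (g : Finset α → ℝ) (hg : ∀ S, 0 ≤ g S) :
    ∀ (d : ℕ) (B B' : Finset α), M.IsBase (B : Set α) → M.IsBase (B' : Set α) →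
      (B \ B').card = d →
      ∀ (l m : ℝ), 0 ≤ l → 0 ≤ m → ∀ z : α → ℝ, (∀ e, 0 ≤ z e) →
      ∃ B'' : Finset α, M.IsBase (B'' : Set α) ∧
        mlin g (fun e => (l + m) * ind B'' e + z e)
          ≤ mlin g (fun e => l * ind B e + m * ind B' e + z e) := by
  intro d
  induction d with
  | zero =>
    intro B B' hB hB' hd l m _ _ z _
    have hsub : B ⊆ B' := by
      rw [← Finset.sdiff_eq_empty_iff_subset]
      exact Finset.card_eq_zero.1 hd
    have heq : B = B' := by
      apply Finset.coe_injective
      exact hB.eq_of_subset_isBase hB' (by exact_mod_cast hsub)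
    subst heq
    refine ⟨B, hB, le_of_eq ?_⟩
    congr 1
    funext e
    ring
  | succ d ih =>
    intro B B' hB hB' hd l m hl hm z hz
    have hne : (B \ B').Nonempty := by
      rw [← Finset.card_pos, hd]
      exact Nat.succ_pos d
    obtain ⟨i, hi⟩ := hne
    rw [Finset.mem_sdiff] at hi
    obtain ⟨j, hjB', hjB, hB1, hB2⟩ :=
      symm_exchange M hB hB' (i := i) (by exact_mod_cast hi.1) (by exact_mod_cast hi.2)
    have hjB'' : j ∈ B' := by exact_mod_cast hjB'
    have hjBn : j ∉ B := by exact_mod_cast hjB
    have hij : i ≠ j := fun h => hjBn (h ▸ hi.1)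
    have hB1' : M.IsBase ((insert j (B.erase i) : Finset α) : Set α) := by
      rw [Finset.coe_insert, Finset.coe_erase]
      exact hB1
    have hB2' : M.IsBase ((insert i (B'.erase j) : Finset α) : Set α) := by
      rw [Finset.coe_insert, Finset.coe_erase]
      exact hB2
    set y : α → ℝ := fun e => l * ind B e + m * ind B' e + z e with hy
    have hy0 : ∀ e, 0 ≤ y e := by
      intro e
      have h1 := ind_nonneg B e
      have h2 := ind_nonneg B' e
      have h3 := hz e
      have h4 := mul_nonneg hl h1
      have h5 := mul_nonneg hm h2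
      simp only [hy]
      linarith
    have conc := mlin_conc g hg y hy0 i j hij l m hl hm
    have E1 : (fun e => l * ind B e + m * ind (insert i (B'.erase j)) e + z e)
        = shift y i j m := by
      funext e
      simp only [shift, hy]
      rw [ind_swap B' i j hi.2 hjB'' e]
      split_ifs <;> ring
    have E2 : (fun e => l * ind (insert j (B.erase i)) e + m * ind B' e + z e)
        = shift y i j (-l) := by
      funext e
      simp only [shift, hy]
      rw [ind_swap B j i hjBn hi.1 e]
      split_ifs <;> ring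
    have hc1 : (B \ insert i (B'.erase j)).card = d := by
      have : B \ insert i (B'.erase j) = (B \ B').erase i := by
        ext e
        simp only [Finset.mem_sdiff, Finset.mem_insert, Finset.mem_erase]
        constructor
        · rintro ⟨he, hn⟩
          push Not at hn
          refine ⟨hn.1, he, fun heB' => ?_⟩
          by_cases hej : e = j
          · exact hjBn (hej ▸ he)
          · exact hn.2 hej heB'
        · rintro ⟨hei, he, heB'⟩
          refine ⟨he, ?_⟩
          rintro (h | h)
          · exact hei h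
          · exact heB' h.2
      rw [this, Finset.card_erase_of_mem (Finset.mem_sdiff.2 hi), hd]
      rfl
    have hc2 : (insert j (B.erase i) \ B').card = d := by
      have : insert j (B.erase i) \ B' = (B \ B').erase i := by
        ext e
        simp only [Finset.mem_sdiff, Finset.mem_insert, Finset.mem_erase]
        constructor
        · rintro ⟨h | h, heB'⟩
          · exact absurd (h ▸ hjB'') heB'
          · exact ⟨h.1, h.2, heB'⟩
        · rintro ⟨hei, he, heB'⟩
          exact ⟨Or.inr ⟨hei, he⟩, heB'⟩
      rw [this, Finset.card_erase_of_mem (Finset.mem_sdiff.2 hi), hd]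
      rfl
    rcases le_or_gt (mlin g (shift y i j m)) (mlin g y) with h | h
    · obtain ⟨B'', hB'', hle⟩ := ih B (insert i (B'.erase j)) hB hB2' hc1 l m hl hm z hz
      refine ⟨B'', hB'', hle.trans ?_⟩
      rw [E1]
      exact h
    · have hmpos : 0 < m := by
        rcases hm.lt_or_eq with h0 | h0
        · exact h0
        · exfalso
          have : shift y i j m = y := by
            funext e
            simp [shift, ← h0]
          rw [this] at h
          exact lt_irrefl _ h
      have h2 : mlin g (shift y i j (-l)) ≤ mlin g y := by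
        by_contra hb
        push Not at hb
        nlinarith [mul_pos hmpos (sub_pos.2 hb), mul_nonneg hl (le_of_lt (sub_pos.2 h))]
      obtain ⟨B'', hB'', hle⟩ := ih (insert j (B.erase i)) B' hB1' hB' hc2 l m hl hm z hz
      refine ⟨B'', hB'', hle.trans ?_⟩
      rw [E2]
      exact h2

/-- a convex combination of bases can be merged into a single base without increasing the
multilinear extension -/
theorem combo (M : Matroid α) (g : Finset α → ℝ) (hg : ∀ S, 0 ≤ g S) {ι : Type*}
    (s : Finset ι) (lam : ι → ℝ) (β : ι → Finset α) :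
    (∀ k ∈ s, 0 ≤ lam k) → (∀ k ∈ s, M.IsBase (β k : Set α)) →
    ∀ (B0 : Finset α), M.IsBase (B0 : Set α) → ∀ l0 : ℝ, 0 ≤ l0 →
    ∀ z : α → ℝ, (∀ e, 0 ≤ z e) →
    ∃ B'' : Finset α, M.IsBase (B'' : Set α) ∧
      mlin g (fun e => (l0 + ∑ k ∈ s, lam k) * ind B'' e + z e)
        ≤ mlin g (fun e => l0 * ind B0 e + ∑ k ∈ s, lam k * ind (β k) e + z e) := by
  classical
  induction s using Finset.induction_on with
  | empty =>
    intro _ _ B0 hB0 l0 _ z _
    refine ⟨B0, hB0, le_of_eq ?_⟩
    congr 1
    funext e
    simp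
  | insert k s hk ih =>
    intro hlam hβ B0 hB0 l0 hl0 z hz
    have hlk : 0 ≤ lam k := hlam k (Finset.mem_insert_self k s)
    have hβk : M.IsBase (β k : Set α) := hβ k (Finset.mem_insert_self k s)
    set z' : α → ℝ := fun e => ∑ k' ∈ s, lam k' * ind (β k') e + z e with hz'
    have hz'0 : ∀ e, 0 ≤ z' e := by
      intro e
      have : 0 ≤ ∑ k' ∈ s, lam k' * ind (β k') e :=
        Finset.sum_nonneg (fun k' hk' =>
          mul_nonneg (hlam k' (Finset.mem_insert_of_mem hk')) (ind_nonneg _ e))
      simp only [hz']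
      linarith [hz e]
    obtain ⟨B1, hB1, h1⟩ := merge M g hg _ B0 (β k) hB0 hβk rfl l0 (lam k) hl0 hlk z' hz'0
    obtain ⟨B'', hB'', h2⟩ := ih (fun k' hk' => hlam k' (Finset.mem_insert_of_mem hk'))
      (fun k' hk' => hβ k' (Finset.mem_insert_of_mem hk')) B1 hB1 (l0 + lam k)
      (add_nonneg hl0 hlk) z hz
    refine ⟨B'', hB'', ?_⟩
    have e1 : (fun e => (l0 + ∑ k' ∈ insert k s, lam k') * ind B'' e + z e)
        = (fun e => (l0 + lam k + ∑ k' ∈ s, lam k') * ind B'' e + z e) := by
      funext e
      rw [Finset.sum_insert hk]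
      ring
    have e2 : (fun e => (l0 + lam k) * ind B1 e + ∑ k' ∈ s, lam k' * ind (β k') e + z e)
        = (fun e => (l0 + lam k) * ind B1 e + z' e) := by
      funext e
      simp only [hz']
      ring
    have e3 : (fun e => l0 * ind B0 e + ∑ k' ∈ insert k s, lam k' * ind (β k') e + z e)
        = (fun e => l0 * ind B0 e + lam k * ind (β k) e + z' e) := by
      funext e
      rw [Finset.sum_insert hk]
      simp only [hz']
      ring
    rw [e1, e3]
    rw [e2] at h2
    exact h2.trans h1

/-- a fractional cover of the bases is at least `1` at every convex combination of bases -/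
theorem mlin_ge_one (M : Matroid α) (g : Finset α → ℝ) (hg : ∀ S, 0 ≤ g S)
    (hcov : ∀ B : Finset α, M.IsBase (B : Set α) → 1 ≤ ∑ S ∈ B.powerset, g S)
    {ι : Type*} (s : Finset ι) (lam : ι → ℝ) (β : ι → Finset α)
    (hlam : ∀ k ∈ s, 0 ≤ lam k) (hβ : ∀ k ∈ s, M.IsBase (β k : Set α))
    (hsum : ∑ k ∈ s, lam k = 1) :
    1 ≤ mlin g (fun e => ∑ k ∈ s, lam k * ind (β k) e) := by
  have hne : s.Nonempty := by
    by_contra h
    rw [Finset.not_nonempty_iff_eq_empty] at h
    rw [h, Finset.sum_empty] at hsum
    exact zero_ne_one hsum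
  obtain ⟨k0, hk0⟩ := hne
  obtain ⟨B'', hB'', h⟩ := combo M g hg s lam β hlam hβ (β k0) (hβ k0 hk0) 0 le_rfl
    (fun _ => 0) (fun _ => le_rfl)
  have e1 : (fun e => (0 + ∑ k ∈ s, lam k) * ind B'' e + 0) = ind B'' := by
    funext e
    rw [hsum]
    ring
  have e2 : (fun e => 0 * ind (β k0) e + ∑ k ∈ s, lam k * ind (β k) e + 0)
      = (fun e => ∑ k ∈ s, lam k * ind (β k) e) := by
    funext e
    ring
  rw [e1, e2, mlin_ind] at h
  exact (hcov B'' hB'').trans h

end Vale.Agent.Lib.P034.H6
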