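import Vale.Agent.Lib.P034.H6.MatGreedy

namespace Vale.Agent.Lib.P034.H6

open Finset

set_option linter.unusedSectionVars false

variable {α : Type*} [Fintype α] [DecidableEq α]

lemma ind_injective : Function.Injective (ind : Finset α → α → ℝ) := by
  intro B B' h
  ext e
  have he := congrFun h e
  unfold ind at he
  by_cases h1 : e ∈ B <;> by_cases h2 : e ∈ B'
  · exact ⟨fun _ => h2, fun _ => h1⟩
  · simp [h1, h2] at he
  · simp [h1, h2] at he
  · exact ⟨fun h => absurd h h1, fun h => absurd h h2⟩

lemma sum_ind_mul (B : Finset α) (c : α → ℝ) : ∑ e, ind B e * c e = ∑ e ∈ B, c e := by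
  have h1 : ∀ e, ind B e * c e = if e ∈ B then c e else 0 := by
    intro e
    unfold ind
    split_ifs <;> simp
  simp_rw [h1]
  rw [← Finset.sum_filter]
  apply Finset.sum_congr
  · ext e
    simp
  · intro _ _
    rfl

/-- in a dense matroid some convex combination of bases is at most `θ` in every coordinate -/
theorem exists_point (M : Matroid α) (θ : ℝ) (hdense : dense M θ) :
    ∃ (s : Finset (Finset α)) (lam : Finset α → ℝ), (∀ B ∈ s, 0 ≤ lam B) ∧
      (∀ B ∈ s, M.IsBase (B : Set α)) ∧ ∑ B ∈ s, lam B = 1 ∧
      ∀ e, ∑ B ∈ s, lam B * ind B e ≤ θ := by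
  classical
  by_contra hno
  set 𝔹 : Finset (Finset α) := Finset.univ.filter (fun B : Finset α => M.IsBase (B : Set α))
    with h𝔹
  set P : Finset (α → ℝ) := 𝔹.image ind with hP
  set C : Set (α → ℝ) := convexHull ℝ (P : Set (α → ℝ)) with hC
  set D : Set (α → ℝ) := {y | ∀ e, y e ≤ θ} with hD
  have hdisj : Disjoint C D := by
    rw [Set.disjoint_left]
    intro x hxC hxD
    rw [hC, Finset.mem_convexHull'] at hxC
    obtain ⟨wt, hwt0, hwt1, hwtx⟩ := hxC
    apply hno
    refine ⟨𝔹, fun B => wt (ind B), ?_, ?_, ?_, ?_⟩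
    · intro B hB
      exact hwt0 (ind B) (Finset.mem_image_of_mem ind hB)
    · intro B hB
      exact (Finset.mem_filter.1 hB).2
    · rw [hP, Finset.sum_image (fun a _ b _ h => ind_injective h)] at hwt1
      exact hwt1
    · intro e
      have hxe : x e ≤ θ := hxD e
      rw [← hwtx, hP, Finset.sum_image (fun a _ b _ h => ind_injective h)] at hxe
      simpa [Finset.sum_apply, smul_eq_mul] using hxe
  have hDconv : Convex ℝ D := by
    intro x hx y hy a b ha hb hab e
    have h1 := hx e
    have h2 := hy e
    simp only [Pi.add_apply, Pi.smul_apply, smul_eq_mul]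
    calc a * x e + b * y e ≤ a * θ + b * θ :=
          add_le_add (mul_le_mul_of_nonneg_left h1 ha) (mul_le_mul_of_nonneg_left h2 hb)
      _ = θ := by rw [← add_mul, hab, one_mul]
  have hDclosed : IsClosed D := by
    have : D = ⋂ e, {y : α → ℝ | y e ≤ θ} := by
      ext y
      simp [hD]
    rw [this]
    exact isClosed_iInter (fun e => isClosed_le (continuous_apply e) continuous_const)
  obtain ⟨f, u, v, hfC, huv, hfD⟩ := geometric_hahn_banach_compact_closed
    (convex_convexHull ℝ _) (P.finite_toSet.isCompact_convexHull ℝ) hDconv hDclosed hdisj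
  set c : α → ℝ := fun e => f (fun j => if e = j then 1 else 0) with hc
  have hf : ∀ x : α → ℝ, f x = ∑ e, x e * c e := by
    intro x
    have := LinearMap.pi_apply_eq_sum_univ (f : (α → ℝ) →ₗ[ℝ] ℝ) x
    simpa [smul_eq_mul, hc] using this
  set T := ∑ e, c e with hT
  have hconst : v < θ * T := by
    have h1 := hfD (fun _ => θ) (fun _ => le_rfl)
    rw [hf] at h1
    rw [hT, Finset.mul_sum]
    exact h1
  have hcneg : ∀ e, c e ≤ 0 := by
    intro e
    by_contra hpos
    push Not at hpos
    set t := (θ * T - v) / c e with ht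
    have ht0 : 0 ≤ t := div_nonneg (by linarith) hpos.le
    have hmem : (fun e' => θ - (if e' = e then t else 0)) ∈ D := by
      intro e'
      show θ - (if e' = e then t else 0) ≤ θ
      split_ifs <;> linarith
    have h1 := hfD _ hmem
    rw [hf] at h1
    have h2 : ∑ e', (θ - (if e' = e then t else 0)) * c e' = θ * T - t * c e := by
      have : ∀ e', (θ - (if e' = e then t else 0)) * c e'
          = θ * c e' - (if e' = e then t * c e else 0) := by
        intro e'
        split_ifs with h
        · rw [h]
          ring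
        · ring
      simp_rw [this]
      rw [Finset.sum_sub_distrib, ← Finset.mul_sum, Finset.sum_ite_eq' Finset.univ e]
      simp [hT]
    rw [h2] at h1
    have h3 : t * c e = θ * T - v := by
      rw [ht]
      field_simp
    linarith
  -- weights
  set w : α → ℝ := fun e => - c e with hw
  have hw0 : ∀ e, 0 ≤ w e := fun e => by
    simp only [hw]
    linarith [hcneg e]
  have hbig : ∀ B : Finset α, M.IsBase (B : Set α) → θ * ∑ e, w e < ∑ e ∈ B, w e := by
    intro B hB
    have hmem : ind B ∈ C := by
      apply subset_convexHull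
      rw [hP]
      exact Finset.mem_coe.2 (Finset.mem_image_of_mem ind (Finset.mem_filter.2 ⟨Finset.mem_univ _, hB⟩))
    have h1 := hfC _ hmem
    rw [hf, sum_ind_mul] at h1
    have h2 : ∑ e, w e = - T := by
      simp [hw, hT]
    have h3 : ∑ e ∈ B, w e = - ∑ e ∈ B, c e := by
      simp [hw]
    rw [h2, h3]
    linarith
  obtain ⟨J, hJ⟩ := M.exists_isBasis' ((Finset.univ.filter (fun e => w e = 0) : Finset α) : Set α)
  set I : Finset α := (Set.toFinite J).toFinset with hI
  have hIc : (I : Set α) = J := Set.Finite.coe_toFinset _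
  obtain ⟨B, hB, _, hle⟩ := greedy M θ hdense _ w hw0 rfl I (by rw [hIc]; exact hJ)
  exact absurd hle (not_le.2 (hbig B hB))

end Vale.Agent.Lib.P034.H6
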