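import Vale.Agent.Lib.P064.StarForest

namespace Vale.Agent.Lib.P034.H6

open Vale.Agent.Lib.P064

open Finset

open scoped Classical

variable {n : ℕ}

lemma permGraph_mul (α β : Equiv.Perm (Fin n)) (G : SimpleGraph (Fin n)) :
    permGraph (α * β) G = permGraph α (permGraph β G) := by
  ext a b
  show G.Adj ((α * β).symm a) ((α * β).symm b) ↔ G.Adj (β.symm (α.symm a)) (β.symm (α.symm b))
  rfl

lemma permGraph_one (G : SimpleGraph (Fin n)) : permGraph 1 G = G := by
  ext a b
  show G.Adj ((1 : Equiv.Perm (Fin n)).symm a) ((1 : Equiv.Perm (Fin n)).symm b) ↔ G.Adj a b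
  rfl

lemma permGraph_inv_cancel (σ : Equiv.Perm (Fin n)) (G : SimpleGraph (Fin n)) :
    permGraph σ⁻¹ (permGraph σ G) = G := by
  rw [← permGraph_mul, inv_mul_cancel, permGraph_one]

lemma permGraph_cancel_inv (σ : Equiv.Perm (Fin n)) (G : SimpleGraph (Fin n)) :
    permGraph σ (permGraph σ⁻¹ G) = G := by
  rw [← permGraph_mul, mul_inv_cancel, permGraph_one]

lemma permGraph_mono (σ : Equiv.Perm (Fin n)) {A B : SimpleGraph (Fin n)} (h : A ≤ B) :
    permGraph σ A ≤ permGraph σ B := by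
  intro a b hab
  exact h hab

lemma le_permGraph_inv_iff (σ : Equiv.Perm (Fin n)) (S H : SimpleGraph (Fin n)) :
    S ≤ permGraph σ⁻¹ H ↔ permGraph σ S ≤ H := by
  constructor
  · intro h
    have := permGraph_mono σ h
    rwa [permGraph_cancel_inv] at this
  · intro h
    have := permGraph_mono σ⁻¹ h
    rwa [permGraph_inv_cancel] at this

lemma exists_perm_of_iso (G' S : SimpleGraph (Fin n)) (h : Nonempty (G' ≃g S)) :
    ∃ τ : Equiv.Perm (Fin n), permGraph τ S = G' := by
  obtain ⟨τ, hτ⟩ := (iso_iff_perm G' S).mp h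
  refine ⟨τ, ?_⟩
  ext u v
  obtain ⟨u', rfl⟩ := τ.surjective u
  obtain ⟨v', rfl⟩ := τ.surjective v
  rw [permGraph_adj, hτ]

/-- all fibres of `σ ↦ σ S` over the copies of `S` have the same size -/
lemma card_fiber (S G' : SimpleGraph (Fin n)) (h : Nonempty (G' ≃g S)) :
    ((Finset.univ : Finset (Equiv.Perm (Fin n))).filter (fun σ => permGraph σ S = G')).card
      = ((Finset.univ : Finset (Equiv.Perm (Fin n))).filter (fun ρ => permGraph ρ S = S)).card := by
  obtain ⟨τ, hτ⟩ := exists_perm_of_iso G' S h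
  symm
  refine Finset.card_bij (fun ρ _ => τ * ρ) ?_ ?_ ?_
  · intro ρ hρ
    rw [Finset.mem_filter] at hρ ⊢
    refine ⟨Finset.mem_univ _, ?_⟩
    rw [permGraph_mul, hρ.2, hτ]
  · intro ρ₁ _ ρ₂ _ h12
    exact mul_left_cancel h12
  · intro σ hσ
    rw [Finset.mem_filter] at hσ
    refine ⟨τ⁻¹ * σ, ?_, ?_⟩
    · rw [Finset.mem_filter]
      refine ⟨Finset.mem_univ _, ?_⟩
      rw [permGraph_mul, hσ.2, ← hτ, permGraph_inv_cancel]
    · rw [mul_inv_cancel_left]

/-- orbit counting for the permutations that carry `S` into `H` -/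
lemma card_perm_into (S H : SimpleGraph (Fin n)) :
    ((Finset.univ : Finset (Equiv.Perm (Fin n))).filter (fun σ => permGraph σ S ≤ H)).card
      = copies H S
        * ((Finset.univ : Finset (Equiv.Perm (Fin n))).filter (fun ρ => permGraph ρ S = S)).card := by
  rw [copies_eq_card]
  have hmaps : Set.MapsTo (fun σ : Equiv.Perm (Fin n) => permGraph σ S)
      (((Finset.univ : Finset (Equiv.Perm (Fin n))).filter (fun σ => permGraph σ S ≤ H) :
        Finset (Equiv.Perm (Fin n))) : Set (Equiv.Perm (Fin n)))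
      (copiesFinset H S : Set (SimpleGraph (Fin n))) := by
    intro σ hσ
    rw [Finset.mem_coe, Finset.mem_filter] at hσ
    rw [Finset.mem_coe, mem_copiesFinset]
    exact ⟨hσ.2, permGraph_iso σ S S ⟨SimpleGraph.Iso.refl⟩⟩
  rw [Finset.card_eq_sum_card_fiberwise hmaps]
  have hfib : ∀ G' ∈ copiesFinset H S,
      (((Finset.univ : Finset (Equiv.Perm (Fin n))).filter (fun σ => permGraph σ S ≤ H)).filter
        (fun σ => permGraph σ S = G')).card
      = ((Finset.univ : Finset (Equiv.Perm (Fin n))).filter (fun ρ => permGraph ρ S = S)).card := by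
    intro G' hG'
    rw [mem_copiesFinset] at hG'
    rw [← card_fiber S G' hG'.2]
    congr 1
    ext σ
    simp only [Finset.mem_filter, Finset.mem_univ, true_and]
    constructor
    · intro h
      exact h.2
    · intro h
      exact ⟨h ▸ hG'.1, h⟩
  rw [Finset.sum_congr rfl hfib, Finset.sum_const, smul_eq_mul]

lemma card_perm_into_top (S : SimpleGraph (Fin n)) :
    n.factorial = copies ⊤ S
        * ((Finset.univ : Finset (Equiv.Perm (Fin n))).filter (fun ρ => permGraph ρ S = S)).card := by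
  rw [← card_perm_into S ⊤]
  have : (Finset.univ : Finset (Equiv.Perm (Fin n))).filter (fun σ => permGraph σ S ≤ ⊤)
      = Finset.univ := by
    ext σ
    simp
  rw [this, Finset.card_univ, Fintype.card_perm, Fintype.card_fin]

/-- the number of permutations carrying `S` into `H`, times the number of copies of `S` in the
complete graph, is `n!` times the number of copies of `S` in `H` -/
lemma card_perm_into_mul (S H : SimpleGraph (Fin n)) :
    ((Finset.univ : Finset (Equiv.Perm (Fin n))).filter (fun σ => permGraph σ S ≤ H)).card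
        * copies ⊤ S = n.factorial * copies H S := by
  rw [card_perm_into S H, card_perm_into_top S]
  ring

lemma copies_congr (G F F' : SimpleGraph (Fin n)) (h : Nonempty (F ≃g F')) :
    copies G F = copies G F' := by
  obtain ⟨e⟩ := h
  unfold copies
  congr 1
  ext G'
  constructor
  · rintro ⟨h1, ⟨f⟩⟩
    exact ⟨h1, ⟨f.trans e⟩⟩
  · rintro ⟨h1, ⟨f⟩⟩
    exact ⟨h1, ⟨f.trans e.symm⟩⟩

lemma ncard_edgeSet_congr (F F' : SimpleGraph (Fin n)) (h : Nonempty (F ≃g F')) :
    F.edgeSet.ncard = F'.edgeSet.ncard := by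
  obtain ⟨e⟩ := h
  rw [ncard_edgeSet, ncard_edgeSet]
  exact e.card_edgeFinset_eq

/-- symmetrization: a fractional cover of the family of graphs containing a copy of `H`, of cost
at most `1/2` at `p`, yields a graph `S` with `N(H,S) ≥ 2 N(K_n,S) p^e(S)` -/
lemma exists_heavy (H : SimpleGraph (Fin n)) (g : SimpleGraph (Fin n) → ℝ) (p : ℝ)
    (hg : ∀ S, 0 ≤ g S)
    (hcover : ∀ T : SimpleGraph (Fin n),
      (∃ H' : SimpleGraph (Fin n), H' ≤ T ∧ Nonempty (H' ≃g H)) →
      (1 : ℝ) ≤ ∑ S ∈ (Finset.univ : Finset (SimpleGraph (Fin n))).filter (fun S => S ≤ T), g S)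
    (hcost : ∑ S : SimpleGraph (Fin n), g S * p ^ S.edgeSet.ncard ≤ 1 / 2) :
    ∃ S : SimpleGraph (Fin n),
      2 * (copies ⊤ S : ℝ) * p ^ S.edgeSet.ncard ≤ (copies H S : ℝ) := by
  by_contra hno
  have hno' : ∀ S : SimpleGraph (Fin n),
      (copies H S : ℝ) < 2 * (copies ⊤ S : ℝ) * p ^ S.edgeSet.ncard := by
    intro S
    by_contra h
    exact hno ⟨S, not_lt.mp h⟩
  -- the double sum
  have h1 : ((n.factorial : ℕ) : ℝ)
      ≤ ∑ σ : Equiv.Perm (Fin n),
          ∑ S ∈ (Finset.univ : Finset (SimpleGraph (Fin n))).filter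
            (fun S => S ≤ permGraph σ⁻¹ H), g S := by
    have hσ : ∀ σ ∈ (Finset.univ : Finset (Equiv.Perm (Fin n))), (1 : ℝ)
        ≤ ∑ S ∈ (Finset.univ : Finset (SimpleGraph (Fin n))).filter
            (fun S => S ≤ permGraph σ⁻¹ H), g S := by
      intro σ _
      exact hcover (permGraph σ⁻¹ H)
        ⟨permGraph σ⁻¹ H, le_rfl, permGraph_iso σ⁻¹ H H ⟨SimpleGraph.Iso.refl⟩⟩
    have := Finset.sum_le_sum hσ
    rw [Finset.sum_const, Finset.card_univ, Fintype.card_perm, Fintype.card_fin,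
      nsmul_eq_mul, mul_one] at this
    exact this
  have h2 : ∑ σ : Equiv.Perm (Fin n),
      ∑ S ∈ (Finset.univ : Finset (SimpleGraph (Fin n))).filter
        (fun S => S ≤ permGraph σ⁻¹ H), g S
      = ∑ S : SimpleGraph (Fin n), g S *
          (((Finset.univ : Finset (Equiv.Perm (Fin n))).filter
            (fun σ => permGraph σ S ≤ H)).card : ℝ) := by
    have e1 : ∀ σ : Equiv.Perm (Fin n),
        ∑ S ∈ (Finset.univ : Finset (SimpleGraph (Fin n))).filter
          (fun S => S ≤ permGraph σ⁻¹ H), g S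
        = ∑ S : SimpleGraph (Fin n), if permGraph σ S ≤ H then g S else 0 := by
      intro σ
      rw [Finset.sum_filter]
      apply Finset.sum_congr rfl
      intro S _
      rw [if_congr (le_permGraph_inv_iff σ S H) rfl rfl]
    rw [Finset.sum_congr rfl (fun σ _ => e1 σ), Finset.sum_comm]
    apply Finset.sum_congr rfl
    intro S _
    rw [← Finset.sum_filter, Finset.sum_const, nsmul_eq_mul, mul_comm]
  rw [h2] at h1
  -- each term is strictly dominated unless `g S = 0`
  have h3 : ∀ S : SimpleGraph (Fin n),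
      g S * (((Finset.univ : Finset (Equiv.Perm (Fin n))).filter
            (fun σ => permGraph σ S ≤ H)).card : ℝ)
        ≤ ((n.factorial : ℕ) : ℝ) * (2 * (g S * p ^ S.edgeSet.ncard)) := by
    intro S
    have hc := card_perm_into_mul S H
    have hc' : (((Finset.univ : Finset (Equiv.Perm (Fin n))).filter
            (fun σ => permGraph σ S ≤ H)).card : ℝ) * (copies ⊤ S : ℝ)
        = ((n.factorial : ℕ) : ℝ) * (copies H S : ℝ) := by
      exact_mod_cast hc
    have hpos : (0 : ℝ) < (copies ⊤ S : ℝ) := by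
      exact_mod_cast one_le_copies_top S
    have hlt := hno' S
    have hfac : (0 : ℝ) ≤ ((n.factorial : ℕ) : ℝ) := Nat.cast_nonneg _
    have h4 : (((Finset.univ : Finset (Equiv.Perm (Fin n))).filter
            (fun σ => permGraph σ S ≤ H)).card : ℝ) * (copies ⊤ S : ℝ)
        ≤ (((n.factorial : ℕ) : ℝ) * (2 * p ^ S.edgeSet.ncard)) * (copies ⊤ S : ℝ) := by
      rw [hc']
      have := mul_le_mul_of_nonneg_left hlt.le hfac
      calc ((n.factorial : ℕ) : ℝ) * (copies H S : ℝ)
          ≤ ((n.factorial : ℕ) : ℝ) * (2 * (copies ⊤ S : ℝ) * p ^ S.edgeSet.ncard) := this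
        _ = (((n.factorial : ℕ) : ℝ) * (2 * p ^ S.edgeSet.ncard)) * (copies ⊤ S : ℝ) := by ring
    have h5 := le_of_mul_le_mul_right h4 hpos
    calc g S * (((Finset.univ : Finset (Equiv.Perm (Fin n))).filter
            (fun σ => permGraph σ S ≤ H)).card : ℝ)
        ≤ g S * (((n.factorial : ℕ) : ℝ) * (2 * p ^ S.edgeSet.ncard)) :=
          mul_le_mul_of_nonneg_left h5 (hg S)
      _ = ((n.factorial : ℕ) : ℝ) * (2 * (g S * p ^ S.edgeSet.ncard)) := by ring
  have hfacpos : (0 : ℝ) < ((n.factorial : ℕ) : ℝ) := by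
    exact_mod_cast Nat.factorial_pos n
  -- strictness: some `g S` is positive with a positive count
  have hex : ∃ S : SimpleGraph (Fin n),
      g S * (((Finset.univ : Finset (Equiv.Perm (Fin n))).filter
            (fun σ => permGraph σ S ≤ H)).card : ℝ)
        < ((n.factorial : ℕ) : ℝ) * (2 * (g S * p ^ S.edgeSet.ncard)) := by
    by_contra hall
    have hall' : ∀ S : SimpleGraph (Fin n),
        g S * (((Finset.univ : Finset (Equiv.Perm (Fin n))).filter
            (fun σ => permGraph σ S ≤ H)).card : ℝ) ≤ 0 := by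
      intro S
      by_contra hS
      rw [not_le] at hS
      apply hall
      refine ⟨S, ?_⟩
      -- positive product: g S > 0 and the count is positive
      have hgS : 0 < g S := by
        rcases (hg S).eq_or_lt with h0 | h0
        · rw [← h0, zero_mul] at hS
          exact absurd hS (lt_irrefl 0)
        · exact h0
      have hcnt : (0 : ℝ) < (((Finset.univ : Finset (Equiv.Perm (Fin n))).filter
            (fun σ => permGraph σ S ≤ H)).card : ℝ) := by
        by_contra hc0
        have : (((Finset.univ : Finset (Equiv.Perm (Fin n))).filter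
            (fun σ => permGraph σ S ≤ H)).card : ℝ) = 0 :=
          le_antisymm (not_lt.mp hc0) (Nat.cast_nonneg _)
        rw [this, mul_zero] at hS
        exact absurd hS (lt_irrefl 0)
      have hc := card_perm_into_mul S H
      have hc' : (((Finset.univ : Finset (Equiv.Perm (Fin n))).filter
              (fun σ => permGraph σ S ≤ H)).card : ℝ) * (copies ⊤ S : ℝ)
          = ((n.factorial : ℕ) : ℝ) * (copies H S : ℝ) := by
        exact_mod_cast hc
      have hpos : (0 : ℝ) < (copies ⊤ S : ℝ) := by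
        exact_mod_cast one_le_copies_top S
      have hlt := hno' S
      have h4 : (((Finset.univ : Finset (Equiv.Perm (Fin n))).filter
              (fun σ => permGraph σ S ≤ H)).card : ℝ) * (copies ⊤ S : ℝ)
          < (((n.factorial : ℕ) : ℝ) * (2 * p ^ S.edgeSet.ncard)) * (copies ⊤ S : ℝ) := by
        rw [hc']
        have := mul_lt_mul_of_pos_left hlt hfacpos
        calc ((n.factorial : ℕ) : ℝ) * (copies H S : ℝ)
            < ((n.factorial : ℕ) : ℝ) * (2 * (copies ⊤ S : ℝ) * p ^ S.edgeSet.ncard) := this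
          _ = (((n.factorial : ℕ) : ℝ) * (2 * p ^ S.edgeSet.ncard)) * (copies ⊤ S : ℝ) := by
              ring
      have h5 := lt_of_mul_lt_mul_right h4 hpos.le
      calc g S * (((Finset.univ : Finset (Equiv.Perm (Fin n))).filter
              (fun σ => permGraph σ S ≤ H)).card : ℝ)
          < g S * (((n.factorial : ℕ) : ℝ) * (2 * p ^ S.edgeSet.ncard)) :=
            mul_lt_mul_of_pos_left h5 hgS
        _ = ((n.factorial : ℕ) : ℝ) * (2 * (g S * p ^ S.edgeSet.ncard)) := by ring
    have : ((n.factorial : ℕ) : ℝ) ≤ 0 :=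
      le_trans h1 (Finset.sum_nonpos (fun S _ => hall' S))
    exact absurd this (not_le.mpr hfacpos)
  obtain ⟨S₀, hS₀⟩ := hex
  have h6 : ∑ S : SimpleGraph (Fin n), g S *
          (((Finset.univ : Finset (Equiv.Perm (Fin n))).filter
            (fun σ => permGraph σ S ≤ H)).card : ℝ)
      < ∑ S : SimpleGraph (Fin n),
          ((n.factorial : ℕ) : ℝ) * (2 * (g S * p ^ S.edgeSet.ncard)) :=
    Finset.sum_lt_sum (fun S _ => h3 S) ⟨S₀, Finset.mem_univ _, hS₀⟩
  have h7 : ∑ S : SimpleGraph (Fin n),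
      ((n.factorial : ℕ) : ℝ) * (2 * (g S * p ^ S.edgeSet.ncard))
      = ((n.factorial : ℕ) : ℝ) * (2 * ∑ S : SimpleGraph (Fin n), g S * p ^ S.edgeSet.ncard) := by
    rw [Finset.mul_sum, Finset.mul_sum]
  rw [h7] at h6
  have h8 : ((n.factorial : ℕ) : ℝ) * (2 * ∑ S : SimpleGraph (Fin n), g S * p ^ S.edgeSet.ncard)
      ≤ ((n.factorial : ℕ) : ℝ) * 1 := by
    apply mul_le_mul_of_nonneg_left _ hfacpos.le
    linarith
  linarith

/-- a fractional cover of cost at most `1/2` forces `H` to have an edge -/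
lemma exists_adj_of_cover (H : SimpleGraph (Fin n)) (g : SimpleGraph (Fin n) → ℝ) (p : ℝ)
    (hp : 0 ≤ p) (hg : ∀ S, 0 ≤ g S)
    (hcover : ∀ T : SimpleGraph (Fin n),
      (∃ H' : SimpleGraph (Fin n), H' ≤ T ∧ Nonempty (H' ≃g H)) →
      (1 : ℝ) ≤ ∑ S ∈ (Finset.univ : Finset (SimpleGraph (Fin n))).filter (fun S => S ≤ T), g S)
    (hcost : ∑ S : SimpleGraph (Fin n), g S * p ^ S.edgeSet.ncard ≤ 1 / 2) :
    ∃ a b, H.Adj a b := by
  by_contra hno
  have hbot : H = ⊥ := by
    ext a b
    simp only [SimpleGraph.bot_adj, iff_false]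
    intro hab
    exact hno ⟨a, b, hab⟩
  subst hbot
  have h1 := hcover ⊥ ⟨⊥, le_rfl, ⟨SimpleGraph.Iso.refl⟩⟩
  have hfilter : (Finset.univ : Finset (SimpleGraph (Fin n))).filter (fun S => S ≤ ⊥) = {⊥} := by
    ext S
    simp
  rw [hfilter, Finset.sum_singleton] at h1
  have h2 : g ⊥ * p ^ (⊥ : SimpleGraph (Fin n)).edgeSet.ncard
      ≤ ∑ S : SimpleGraph (Fin n), g S * p ^ S.edgeSet.ncard :=
    Finset.single_le_sum (f := fun S : SimpleGraph (Fin n) => g S * p ^ S.edgeSet.ncard)
      (fun S _ => mul_nonneg (hg S) (pow_nonneg hp _)) (Finset.mem_univ ⊥)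
  rw [SimpleGraph.edgeSet_bot, Set.ncard_empty, pow_zero, mul_one] at h2
  linarith

/-- transfer: a comparison inequality with constant `L` for the subgraphs of `H` turns every
fractional cover of the family of graphs containing a copy of `H`, of cost at most `1/2` at
`p`, into an integral cover of cost at most `1/2` at `p / (2 L)` -/
theorem transfer (H : SimpleGraph (Fin n)) (L : ℝ) (hL : 0 < L)
    (hcomp : ∀ q : ℝ, 0 ≤ q →
      (∀ F : SimpleGraph (Fin n), F ≤ H → (1 : ℝ) ≤ (copies ⊤ F : ℝ) * q ^ F.edgeSet.ncard) →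
      ∀ F : SimpleGraph (Fin n), F ≤ H →
        (copies H F : ℝ) ≤ (copies ⊤ F : ℝ) * (L * q) ^ F.edgeSet.ncard)
    (g : SimpleGraph (Fin n) → ℝ) (p : ℝ) (hp : 0 ≤ p) (hg : ∀ S, 0 ≤ g S)
    (hcover : ∀ T : SimpleGraph (Fin n),
      (∃ H' : SimpleGraph (Fin n), H' ≤ T ∧ Nonempty (H' ≃g H)) →
      (1 : ℝ) ≤ ∑ S ∈ (Finset.univ : Finset (SimpleGraph (Fin n))).filter (fun S => S ≤ T), g S)
    (hcost : ∑ S : SimpleGraph (Fin n), g S * p ^ S.edgeSet.ncard ≤ 1 / 2) :
    ∃ G : Finset (SimpleGraph (Fin n)),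
      (∀ T : SimpleGraph (Fin n),
        (∃ H' : SimpleGraph (Fin n), H' ≤ T ∧ Nonempty (H' ≃g H)) → ∃ S ∈ G, S ≤ T) ∧
      ∑ S ∈ G, (p / (2 * L)) ^ S.edgeSet.ncard ≤ 1 / 2 := by
  obtain ⟨a, b, hab⟩ := exists_adj_of_cover H g p hp hg hcover hcost
  have hq0 : 0 ≤ p / L := div_nonneg hp hL.le
  have hLq : L * (p / L) = p := mul_div_cancel₀ p hL.ne'
  have hnot : ¬ (∀ F : SimpleGraph (Fin n), F ≤ H →
      (1 : ℝ) ≤ (copies ⊤ F : ℝ) * (p / L) ^ F.edgeSet.ncard) := by
    intro hyp
    have hc := hcomp (p / L) hq0 hyp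
    obtain ⟨S, hS⟩ := exists_heavy H g p hg hcover hcost
    by_cases hp0 : p = 0
    · have h1 := hyp H le_rfl
      have hne : H.edgeSet.ncard ≠ 0 := by
        intro h0
        rw [Set.ncard_eq_zero (Set.toFinite _)] at h0
        have : s(a, b) ∈ H.edgeSet := (SimpleGraph.mem_edgeSet H).mpr hab
        rw [h0] at this
        exact this
      rw [hp0, zero_div, zero_pow hne, mul_zero] at h1
      linarith
    · have hppos : 0 < p := lt_of_le_of_ne hp (Ne.symm hp0)
      have hcS : (0 : ℝ) < (copies ⊤ S : ℝ) := by exact_mod_cast one_le_copies_top S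
      have hpS : (0 : ℝ) < p ^ S.edgeSet.ncard := pow_pos hppos _
      have hpos : (0 : ℝ) < (copies H S : ℝ) :=
        lt_of_lt_of_le (by positivity) hS
      have hposn : 0 < copies H S := by exact_mod_cast hpos
      rw [copies_eq_card, Finset.card_pos] at hposn
      obtain ⟨F, hF⟩ := hposn
      rw [mem_copiesFinset] at hF
      have e1 := copies_congr H F S hF.2
      have e2 := copies_congr ⊤ F S hF.2
      have e3 := ncard_edgeSet_congr F S hF.2
      have h2 := hc F hF.1
      rw [e1, e2, e3, hLq] at h2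
      nlinarith
  rw [not_forall] at hnot
  obtain ⟨F₂, hF₂⟩ := hnot
  rw [Classical.not_imp, not_le] at hF₂
  obtain ⟨hle, hlt⟩ := hF₂
  have hone : (1 : ℝ) ≤ (copies ⊤ F₂ : ℝ) := by exact_mod_cast one_le_copies_top F₂
  have he : F₂.edgeSet.ncard ≠ 0 := by
    intro h0
    rw [h0, pow_zero, mul_one] at hlt
    linarith
  refine ⟨copiesFinset ⊤ F₂, ?_, ?_⟩
  · rintro T ⟨H', hH', hiso⟩
    obtain ⟨τ, hτ⟩ := exists_perm_of_iso H' H hiso
    refine ⟨permGraph τ F₂, ?_, ?_⟩
    · rw [mem_copiesFinset]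
      exact ⟨le_top, permGraph_iso τ F₂ F₂ ⟨SimpleGraph.Iso.refl⟩⟩
    · have := permGraph_mono τ hle
      rw [hτ] at this
      exact le_trans this hH'
  · have hterm : ∀ S ∈ copiesFinset ⊤ F₂,
        (p / (2 * L)) ^ S.edgeSet.ncard = (p / L / 2) ^ F₂.edgeSet.ncard := by
      intro S hS
      rw [mem_copiesFinset] at hS
      rw [ncard_edgeSet_congr S F₂ hS.2]
      congr 1
      field_simp
    rw [Finset.sum_congr rfl hterm, Finset.sum_const, nsmul_eq_mul, ← copies_eq_card, div_pow]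
    have h2 : (2 : ℝ) ≤ 2 ^ F₂.edgeSet.ncard := by
      calc (2 : ℝ) = 2 ^ 1 := by norm_num
        _ ≤ 2 ^ F₂.edgeSet.ncard :=
            pow_le_pow_right₀ (by norm_num) (Nat.one_le_iff_ne_zero.mpr he)
    have h2pos : (0 : ℝ) < 2 ^ F₂.edgeSet.ncard := by positivity
    rw [← mul_div_assoc, div_le_iff₀ h2pos]
    have h3 : (0 : ℝ) ≤ (copies ⊤ F₂ : ℝ) * (p / L) ^ F₂.edgeSet.ncard := by positivity
    nlinarith

end Vale.Agent.Lib.P034.H6
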