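import Vale.Agent.Lib.P064.SparseMain

namespace Vale.Agent.Lib.P034.H6

open Finset

open Vale.Agent.Lib.P064

open scoped Classical

variable {n : ℕ}

/-- transfer at a single density: if the expectation hypothesis at `q` forces
`N(H,F) ≤ N(K_n,F) p^e(F)` for all `F`, then every fractional cover of the family of graphs
containing a copy of `H`, of cost at most `1/2` at `p`, yields an integral cover of cost at most
`1/2` at `q / 2` -/
theorem transfer_at (H : SimpleGraph (Fin n)) (g : SimpleGraph (Fin n) → ℝ) (p q : ℝ)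
    (hp : 0 ≤ p) (hq0 : 0 ≤ q) (hqp : q ≤ p)
    (hcomp : (∀ F : SimpleGraph (Fin n), F ≤ H →
        (1 : ℝ) ≤ (copies ⊤ F : ℝ) * q ^ F.edgeSet.ncard) →
      ∀ F : SimpleGraph (Fin n),
        (copies H F : ℝ) ≤ (copies ⊤ F : ℝ) * p ^ F.edgeSet.ncard)
    (hg : ∀ S, 0 ≤ g S)
    (hcover : ∀ T : SimpleGraph (Fin n),
      (∃ H' : SimpleGraph (Fin n), H' ≤ T ∧ Nonempty (H' ≃g H)) →
      (1 : ℝ) ≤ ∑ S ∈ (Finset.univ : Finset (SimpleGraph (Fin n))).filter (fun S => S ≤ T), g S)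
    (hcost : ∑ S : SimpleGraph (Fin n), g S * p ^ S.edgeSet.ncard ≤ 1 / 2) :
    ∃ G : Finset (SimpleGraph (Fin n)),
      (∀ T : SimpleGraph (Fin n),
        (∃ H' : SimpleGraph (Fin n), H' ≤ T ∧ Nonempty (H' ≃g H)) → ∃ S ∈ G, S ≤ T) ∧
      ∑ S ∈ G, (q / 2) ^ S.edgeSet.ncard ≤ 1 / 2 := by
  obtain ⟨a, b, hab⟩ := exists_adj_of_cover H g p hp hg hcover hcost
  have hnot : ¬ (∀ F : SimpleGraph (Fin n), F ≤ H →
      (1 : ℝ) ≤ (copies ⊤ F : ℝ) * q ^ F.edgeSet.ncard) := by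
    intro hyp
    have hc := hcomp hyp
    obtain ⟨S, hS⟩ := exists_heavy H g p hg hcover hcost
    by_cases hp0 : p = 0
    · have hq : q = 0 := le_antisymm (by rw [← hp0]; exact hqp) hq0
      have h1 := hyp H le_rfl
      have hne : H.edgeSet.ncard ≠ 0 := by
        intro h0
        rw [Set.ncard_eq_zero (Set.toFinite _)] at h0
        have : s(a, b) ∈ H.edgeSet := (SimpleGraph.mem_edgeSet H).mpr hab
        rw [h0] at this
        exact this
      rw [hq, zero_pow hne, mul_zero] at h1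
      linarith
    · have hppos : 0 < p := lt_of_le_of_ne hp (Ne.symm hp0)
      have hcS : (0 : ℝ) < (copies ⊤ S : ℝ) := by exact_mod_cast one_le_copies_top S
      have hpS : (0 : ℝ) < p ^ S.edgeSet.ncard := pow_pos hppos _
      have h2 := hc S
      have h3 : (0 : ℝ) < (copies ⊤ S : ℝ) * p ^ S.edgeSet.ncard := mul_pos hcS hpS
      linarith
  rw [not_forall] at hnot
  obtain ⟨F₂, hF₂⟩ := hnot
  rw [Classical.not_imp, not_le] at hF₂
  obtain ⟨hle, hlt⟩ := hF₂
  have hone : (1 : ℝ) ≤ (copies ⊤ F₂ : ℝ) := by exact_mod_cast one_le_copies_top F₂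
  have he : F₂.edgeSet.ncard ≠ 0 := by
    intro h0
    rw [h0, pow_zero, mul_one] at hlt
    linarith
  refine ⟨copiesFinset ⊤ F₂, ?_, ?_⟩
  · rintro T ⟨H', hH', hiso⟩
    obtain ⟨τ, hτ⟩ := exists_perm_of_iso H' H hiso
    refine ⟨permGraph τ F₂, ?_, ?_⟩
    · rw [mem_copiesFinset]
      exact ⟨le_top, permGraph_iso τ F₂ F₂ ⟨SimpleGraph.Iso.refl⟩⟩
    · have := permGraph_mono τ hle
      rw [hτ] at this
      exact le_trans this hH'
  · have hterm : ∀ S ∈ copiesFinset ⊤ F₂,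
        (q / 2) ^ S.edgeSet.ncard = (q / 2) ^ F₂.edgeSet.ncard := by
      intro S hS
      rw [mem_copiesFinset] at hS
      rw [ncard_edgeSet_congr S F₂ hS.2]
    rw [Finset.sum_congr rfl hterm, Finset.sum_const, nsmul_eq_mul, ← copies_eq_card, div_pow]
    have h2 : (2 : ℝ) ≤ 2 ^ F₂.edgeSet.ncard := by
      calc (2 : ℝ) = 2 ^ 1 := by norm_num
        _ ≤ 2 ^ F₂.edgeSet.ncard :=
            pow_le_pow_right₀ (by norm_num) (Nat.one_le_iff_ne_zero.mpr he)
    have h2pos : (0 : ℝ) < 2 ^ F₂.edgeSet.ncard := by positivity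
    rw [← mul_div_assoc, div_le_iff₀ h2pos]
    have h3 : (0 : ℝ) ≤ (copies ⊤ F₂ : ℝ) * q ^ F₂.edgeSet.ncard := by positivity
    nlinarith

/-- the sparse-regime transfer for every graph `H` -/
theorem transfer_sparse (H : SimpleGraph (Fin n)) (g : SimpleGraph (Fin n) → ℝ) (p : ℝ)
    (hp : 0 ≤ p) (hg : ∀ S, 0 ≤ g S)
    (hcover : ∀ T : SimpleGraph (Fin n),
      (∃ H' : SimpleGraph (Fin n), H' ≤ T ∧ Nonempty (H' ≃g H)) →
      (1 : ℝ) ≤ ∑ S ∈ (Finset.univ : Finset (SimpleGraph (Fin n))).filter (fun S => S ≤ T), g S)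
    (hcost : ∑ S : SimpleGraph (Fin n), g S * p ^ S.edgeSet.ncard ≤ 1 / 2) :
    ∃ G : Finset (SimpleGraph (Fin n)),
      (∀ T : SimpleGraph (Fin n),
        (∃ H' : SimpleGraph (Fin n), H' ≤ T ∧ Nonempty (H' ≃g H)) → ∃ S ∈ G, S ≤ T) ∧
      ∑ S ∈ G, (p / (228261888 * max 1 ((n : ℝ) * p))) ^ S.edgeSet.ncard ≤ 1 / 2 := by
  have hn0 : (0 : ℝ) ≤ (n : ℝ) := Nat.cast_nonneg _
  have hM1 : (1 : ℝ) ≤ max 1 ((n : ℝ) * p) := le_max_left _ _
  have hMpos : (0 : ℝ) < 114130944 * max 1 ((n : ℝ) * p) := by positivity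
  have hq0 : (0 : ℝ) ≤ p / (114130944 * max 1 ((n : ℝ) * p)) := div_nonneg hp hMpos.le
  have hqp : p / (114130944 * max 1 ((n : ℝ) * p)) ≤ p := by
    apply div_le_self hp
    linarith
  have hkey : 114130944 * max 1 ((n : ℝ) * (p / (114130944 * max 1 ((n : ℝ) * p))))
      * (p / (114130944 * max 1 ((n : ℝ) * p))) ≤ p := by
    have h1 : max 1 ((n : ℝ) * (p / (114130944 * max 1 ((n : ℝ) * p))))
        ≤ max 1 ((n : ℝ) * p) :=
      max_le_max le_rfl (mul_le_mul_of_nonneg_left hqp hn0)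
    calc 114130944 * max 1 ((n : ℝ) * (p / (114130944 * max 1 ((n : ℝ) * p))))
          * (p / (114130944 * max 1 ((n : ℝ) * p)))
        ≤ 114130944 * max 1 ((n : ℝ) * p) * (p / (114130944 * max 1 ((n : ℝ) * p))) := by
          apply mul_le_mul_of_nonneg_right _ hq0
          exact mul_le_mul_of_nonneg_left h1 (by norm_num)
      _ = p := mul_div_cancel₀ p hMpos.ne'
  have h := transfer_at H g p (p / (114130944 * max 1 ((n : ℝ) * p))) hp hq0 hqp (by
    intro hyp F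
    have hc := comparison_sparse H _ hq0 hyp F
    rw [ncard_edgeSet]
    refine le_trans hc ?_
    apply mul_le_mul_of_nonneg_left _ (Nat.cast_nonneg _)
    exact pow_le_pow_left₀ (by positivity) hkey _) hg hcover hcost
  have e : p / (114130944 * max 1 ((n : ℝ) * p)) / 2 = p / (228261888 * max 1 ((n : ℝ) * p)) := by
    rw [div_div]
    ring_nf
  rw [e] at h
  exact h

end Vale.Agent.Lib.P034.H6
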